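import Mathlib
import Vale.Agent.P045.Main

namespace Vale.Agent.Results.P045.RyserFalse

/-- `H` is `r`-partite `r`-uniform for the partition of the vertex set given by `part`:
every edge contains exactly one vertex of each part. -/
def IsPartiteUniform {V : Type} (r : ℕ) (part : V → Fin r) (H : Finset (Finset V)) : Prop :=
  ∀ e ∈ H, ∀ i : Fin r, ∃! v, v ∈ e ∧ part v = i

/-- Covering number: least size of a set of vertices meeting every edge. -/
noncomputable def coverNumber {V : Type} (H : Finset (Finset V)) : ℕ :=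
  sInf {n | ∃ C : Finset V, (∀ e ∈ H, ∃ v ∈ C, v ∈ e) ∧ C.card = n}

/-- Matching number: largest number of pairwise disjoint edges. -/
noncomputable def matchingNumber {V : Type} (H : Finset (Finset V)) : ℕ :=
  sSup {n | ∃ M ⊆ H, (∀ e ∈ M, ∀ f ∈ M, e ≠ f → Disjoint e f) ∧ M.card = n}

theorem result :
    (¬ ∀ r : ℕ, 2 ≤ r → ∀ (V : Type) [Fintype V] (part : V → Fin r) (H : Finset (Finset V)),
        IsPartiteUniform r part H → coverNumber H ≤ (r - 1) * matchingNumber H) ∧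
    (∀ k : ℕ, 30 ≤ k → ∃ (V : Type) (_ : Fintype V) (part : V → Fin (57 * 2 ^ k))
        (H : Finset (Finset V)), IsPartiteUniform (57 * 2 ^ k) part H ∧ H.Nonempty ∧
        (∀ e ∈ H, ∀ f ∈ H, ∃ v, v ∈ e ∧ v ∈ f) ∧ coverNumber H = 57 * 2 ^ k) ∧
    (∀ k : ℕ, 30 ≤ k → ∀ m : ℕ, ∃ (V : Type) (_ : Fintype V) (part : V → Fin (57 * 2 ^ k))
        (H : Finset (Finset V)), IsPartiteUniform (57 * 2 ^ k) part H ∧
        matchingNumber H = m ∧ coverNumber H = 57 * 2 ^ k * m) := by
  have key : ∀ k : ℕ, 30 ≤ k → ∀ m : ℕ, ∃ (V : Type) (_ : Fintype V)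
      (part : V → Fin (57 * 2 ^ k)) (H : Finset (Finset V)),
      IsPartiteUniform (57 * 2 ^ k) part H ∧
        matchingNumber H = m ∧ coverNumber H = 57 * 2 ^ k * m := by
    intro k hk m
    obtain ⟨V, _, _, part, H, h1, h2, h3⟩ := Vale.Agent.P045.family k hk
    obtain ⟨H', a1, a2, a3, a4, a5⟩ :=
      Vale.Agent.P045.copies part H h1 h2 h3 (by positivity) m
    refine ⟨V × Fin m, inferInstance, fun v => part v.1, H', a1, ?_, ?_⟩
    · refine IsGreatest.csSup_eq ⟨a3, ?_⟩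
      rintro n ⟨M, hM, hd, rfl⟩
      exact a2 M hM hd
    · refine IsLeast.csInf_eq ⟨a5, ?_⟩
      rintro n ⟨C, hC, rfl⟩
      exact a4 C hC
  refine ⟨?_, ?_, key⟩
  · intro h
    obtain ⟨V, _, part, H, h1, h2, h3⟩ := key 30 le_rfl 1
    have := h _ (by norm_num) V part H h1
    rw [h2, h3] at this
    norm_num at this
  · intro k hk
    obtain ⟨V, _, _, part, H, h1, h2, h3⟩ := Vale.Agent.P045.family k hk
    obtain ⟨e0, he0, -⟩ := h3 ∅ (by simp)
    refine ⟨V, inferInstance, part, H, h1, ⟨e0, he0⟩, h2, ?_⟩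
    refine IsLeast.csInf_eq ⟨⟨e0, fun e he => ?_, ?_⟩, ?_⟩
    · obtain ⟨v, hv1, hv2⟩ := h2 e0 he0 e he
      exact ⟨v, hv1, hv2⟩
    · have : e0.card = (Finset.univ : Finset (Fin (57 * 2 ^ k))).card := by
        refine Finset.card_bij (fun v _ => part v) (fun _ _ => Finset.mem_univ _) ?_ ?_
        · intro v hv w hw h
          exact (h1 e0 he0 (part w)).unique ⟨hv, h⟩ ⟨hw, rfl⟩
        · intro i _
          obtain ⟨v, hv, -⟩ := h1 e0 he0 i
          exact ⟨v, hv.1, hv.2⟩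
      simpa using this
    · rintro n ⟨C, hC, rfl⟩
      by_contra hlt
      obtain ⟨e, he, hce⟩ := h3 C (not_le.mp hlt)
      obtain ⟨v, hv, hve⟩ := hC e he
      exact hce v hv hve

end Vale.Agent.Results.P045.RyserFalse
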